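import Vale.Agent.Helper10.Cnt

/-!
# P329 task T2: positional counts under a quotient map, and Radon inversion over `F_p^n`
-/

namespace Vale.Agent.Helper4.P329

open Vale.Agent.Helper10 Finset

/-- Positional counts with respect to the composite degree map are sums of the positional
counts over the fibre. -/
theorem cnt_comp {α A B : Type} [AddCommGroup A] [AddCommGroup B] [DecidableEq A] [DecidableEq B]
    [Fintype A] (lam : A →+ B) (dg : α → A) (sp : α → Prop) [DecidablePred sp] (c : B) (c0 : A)
    (w : List α) :
    cnt (fun a => lam (dg a)) sp c (lam c0) w =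
      ∑ y ∈ Finset.univ.filter (fun y => lam y = c), cnt dg sp y c0 w := by
  induction w generalizing c0 with
  | nil => simp [cnt]
  | cons a w ih =>
    simp only [cnt]
    rw [← map_add, ih (c0 + dg a), Finset.sum_add_distrib]
    congr 1
    by_cases h : sp a ∧ lam c0 = c
    · rw [if_pos h]
      rw [Finset.sum_eq_single_of_mem c0 (by simp [h.2])]
      · simp [h.1]
      · intro y _ hy
        rw [if_neg]
        rintro ⟨_, rfl⟩
        exact hy rfl
    · rw [if_neg h]
      symm
      apply Finset.sum_eq_zero
      intro y hy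
      rw [if_neg]
      rintro ⟨h1, rfl⟩
      exact h ⟨h1, (Finset.mem_filter.mp hy).2⟩

/-- For a nonzero vector `z` the hyperplane `{v | v ⬝ z = 0}` has `p ^ n / p` points. -/
theorem card_hyperplane {n p : ℕ} [Fact p.Prime] (z : Fin n → ZMod p) (hz : z ≠ 0) :
    (Finset.univ.filter (fun v : Fin n → ZMod p => dotProduct v z = 0)).card * p = p ^ n := by
  classical
  obtain ⟨i, hi⟩ : ∃ i, z i ≠ 0 := by
    by_contra hcon
    push Not at hcon
    exact hz (funext hcon)
  set v0 : Fin n → ZMod p := Pi.single i (z i)⁻¹ with hv0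
  have hv0z : dotProduct v0 z = 1 := by
    rw [hv0, single_dotProduct, inv_mul_cancel₀ hi]
  -- all fibres have the same cardinality
  have hfib : ∀ c : ZMod p,
      (Finset.univ.filter (fun v : Fin n → ZMod p => dotProduct v z = c)).card =
      (Finset.univ.filter (fun v : Fin n → ZMod p => dotProduct v z = 0)).card := by
    intro c
    symm
    refine Finset.card_bij' (fun v _ => v + c • v0) (fun v _ => v - c • v0) ?_ ?_ ?_ ?_
    · intro v hv
      simp only [Finset.mem_filter, Finset.mem_univ, true_and] at hv ⊢
      rw [add_dotProduct, smul_dotProduct, hv, hv0z]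
      simp
    · intro v hv
      simp only [Finset.mem_filter, Finset.mem_univ, true_and] at hv ⊢
      rw [sub_dotProduct, smul_dotProduct, hv, hv0z]
      simp
    · intro v _; simp
    · intro v _; simp
  have htot : ∑ c : ZMod p,
      (Finset.univ.filter (fun v : Fin n → ZMod p => dotProduct v z = c)).card = p ^ n := by
    rw [← Finset.card_eq_sum_card_fiberwise (fun _ _ => Finset.mem_univ _), Finset.card_univ]
    simp [ZMod.card]
  rw [Finset.sum_congr rfl (fun c _ => hfib c), Finset.sum_const, Finset.card_univ, ZMod.card,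
    smul_eq_mul] at htot
  rw [mul_comm]
  exact htot

/-- The double-counting identity behind Radon inversion. -/
theorem radon_key {n p : ℕ} [Fact p.Prime] (b : (Fin n → ZMod p) → ℕ) (x : Fin n → ZMod p) :
    p * ∑ v : Fin n → ZMod p,
        ∑ y ∈ Finset.univ.filter (fun y => dotProduct v y = dotProduct v x), b y
      = p ^ n * (p - 1) * b x + p ^ n * ∑ y, b y := by
  classical
  have h1 : ∑ v : Fin n → ZMod p,
        ∑ y ∈ Finset.univ.filter (fun y => dotProduct v y = dotProduct v x), b y
      = ∑ y, b y *
          (Finset.univ.filter (fun v : Fin n → ZMod p => dotProduct v (y - x) = 0)).card := by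
    simp_rw [Finset.sum_filter]
    rw [Finset.sum_comm]
    refine Finset.sum_congr rfl (fun y _ => ?_)
    rw [← Finset.sum_filter, Finset.sum_const, smul_eq_mul, mul_comm]
    congr 2
    ext v
    simp [dotProduct_sub, sub_eq_zero]
  rw [h1, Finset.mul_sum]
  have hp : 1 ≤ p := (Fact.out : p.Prime).one_lt.le
  have h2 : ∀ y, p * (b y *
        (Finset.univ.filter (fun v : Fin n → ZMod p => dotProduct v (y - x) = 0)).card)
      = (if y = x then p ^ n * (p - 1) * b x else 0) + p ^ n * b y := by
    intro y
    by_cases hy : y = x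
    · subst hy
      rw [if_pos rfl]
      have hN : (Finset.univ.filter
          (fun v : Fin n → ZMod p => dotProduct v (y - y) = 0)).card = p ^ n := by
        simp [ZMod.card]
      rw [hN]
      obtain ⟨q, rfl⟩ : ∃ q, p = q + 1 := ⟨p - 1, by omega⟩
      simp only [Nat.add_sub_cancel]
      ring
    · rw [if_neg hy, zero_add]
      have hN := card_hyperplane (y - x) (sub_ne_zero.mpr hy)
      calc p * (b y *
            (Finset.univ.filter (fun v : Fin n → ZMod p => dotProduct v (y - x) = 0)).card)
          = b y * ((Finset.univ.filter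
              (fun v : Fin n → ZMod p => dotProduct v (y - x) = 0)).card * p) := by ring
        _ = b y * p ^ n := by rw [hN]
        _ = p ^ n * b y := by ring
  rw [Finset.sum_congr rfl (fun y _ => h2 y), Finset.sum_add_distrib, Finset.sum_ite_eq',
    if_pos (Finset.mem_univ x), ← Finset.mul_sum]

/-- **Radon inversion over `F_p^n`.** If all hyperplane sums of `a` and `a'` agree modulo
`p ^ n * (p - 1) * e`, then `a` and `a'` agree pointwise modulo `e`. -/
theorem radon {n p e : ℕ} [Fact p.Prime] (a a' : (Fin n → ZMod p) → ℕ)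
    (h : ∀ (v : Fin n → ZMod p) (c : ZMod p),
      (∑ y ∈ Finset.univ.filter (fun y => dotProduct v y = c), a y) ≡
      (∑ y ∈ Finset.univ.filter (fun y => dotProduct v y = c), a' y) [MOD p ^ n * (p - 1) * e]) :
    ∀ x, a x ≡ a' x [MOD e] := by
  intro x
  have hp : 2 ≤ p := (Fact.out : p.Prime).two_le
  have hS : (∑ v : Fin n → ZMod p,
        ∑ y ∈ Finset.univ.filter (fun y => dotProduct v y = dotProduct v x), a y) ≡
      (∑ v : Fin n → ZMod p,
        ∑ y ∈ Finset.univ.filter (fun y => dotProduct v y = dotProduct v x), a' y)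
        [MOD p ^ n * (p - 1) * e] :=
    Nat.ModEq.sum (fun v _ => h v (dotProduct v x))
  have hA : (∑ y, a y) ≡ (∑ y, a' y) [MOD p ^ n * (p - 1) * e] := by
    have h0 := h 0 0
    simpa using h0
  have h1 := Nat.ModEq.mul_left p hS
  rw [radon_key a x, radon_key a' x] at h1
  have h2 := Nat.ModEq.add_right_cancel (Nat.ModEq.mul_left (p ^ n) hA) h1
  have hc : p ^ n * (p - 1) ≠ 0 := by
    apply Nat.mul_ne_zero
    · exact pow_ne_zero _ (by omega)
    · omega
  exact Nat.ModEq.mul_left_cancel' hc h2

end Vale.Agent.Helper4.P329
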