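import Mathlib
import Vale.Agent.Helper23.P329Core

/-
P329, block B3 (first part): the alternation lemma.  For pairwise disjoint finite sets of
letters N, F, B covering the alphabet, the language (N + F N* B)* is star-free.
-/

namespace Vale.Agent.Helper4.P329

open Vale.Agent.Helper23.P329
open Language
open scoped Computability

variable {α : Type} [DecidableEq α]

/-- The two-state automaton for alternation: state `false` = balanced, `true` = open.
Letters of `N` loop, letters of `F` go from balanced to open, all other letters go from open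
to balanced; the remaining transitions are undefined. -/
def altRun (N F : Finset α) : Bool → List α → Option Bool
  | s, [] => some s
  | s, a :: w =>
    if a ∈ N then altRun N F s w
    else if a ∈ F then (if s then none else altRun N F true w)
    else (if s then altRun N F false w else none)

variable (N F B : Finset α)

theorem altRun_nil (s : Bool) : altRun N F s [] = some s := rfl

theorem altRun_cons_N {a : α} (ha : a ∈ N) (s : Bool) (w : List α) :
    altRun N F s (a :: w) = altRun N F s w := by
  simp [altRun, ha]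

theorem altRun_cons_F {a : α} (haN : a ∉ N) (ha : a ∈ F) (s : Bool) (w : List α) :
    altRun N F s (a :: w) = if s then none else altRun N F true w := by
  simp [altRun, haN, ha]

theorem altRun_cons_B {a : α} (haN : a ∉ N) (haF : a ∉ F) (s : Bool) (w : List α) :
    altRun N F s (a :: w) = if s then altRun N F false w else none := by
  simp [altRun, haN, haF]

theorem altRun_append (s : Bool) (u v : List α) :
    altRun N F s (u ++ v) = (altRun N F s u).bind (fun t => altRun N F t v) := by
  induction u generalizing s with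
  | nil => simp [altRun]
  | cons a u ih =>
    by_cases haN : a ∈ N
    · simp [altRun, haN, ih]
    · by_cases haF : a ∈ F
      · cases s <;> simp [altRun, haN, haF, ih]
      · cases s <;> simp [altRun, haN, haF, ih]

theorem altRun_wordsOver {ns : List α} (hns : ∀ x ∈ ns, x ∈ N) (s : Bool) :
    altRun N F s ns = some s := by
  induction ns with
  | nil => rfl
  | cons a ns ih =>
    rw [altRun_cons_N N F (hns a (by simp))]
    exact ih (fun x hx => hns x (by simp [hx]))

/-! ### Factor patterns -/

/-- `w` has a factor `f ns f'` with `f, f' ∈ F` and `ns` over `N`. -/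
def PFF (w : List α) : Prop :=
  ∃ u f ns f' v, f ∈ F ∧ (∀ x ∈ ns, x ∈ N) ∧ f' ∈ F ∧ w = u ++ f :: (ns ++ f' :: v)

/-- `w` has a factor `b ns b'` with `b, b' ∈ B` and `ns` over `N`. -/
def PBB (w : List α) : Prop :=
  ∃ u b ns b' v, b ∈ B ∧ (∀ x ∈ ns, x ∈ N) ∧ b' ∈ B ∧ w = u ++ b :: (ns ++ b' :: v)

/-- The first letter of `w` outside `N` lies in `B`. -/
def PNB (w : List α) : Prop :=
  ∃ ns b v, (∀ x ∈ ns, x ∈ N) ∧ b ∈ B ∧ w = ns ++ b :: v

/-- The first letter of `w` outside `N` lies in `F`. -/
def PNF (w : List α) : Prop :=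
  ∃ ns f v, (∀ x ∈ ns, x ∈ N) ∧ f ∈ F ∧ w = ns ++ f :: v

/-- The last letter of `w` outside `N` lies in `F`. -/
def PFN (w : List α) : Prop :=
  ∃ u f ns, f ∈ F ∧ (∀ x ∈ ns, x ∈ N) ∧ w = u ++ f :: ns

variable {N F B}

theorem altRun_defined (hcover : ∀ a, a ∈ N ∨ a ∈ F ∨ a ∈ B) :
    ∀ (w : List α) (s : Bool), ¬ PFF N F w → ¬ PBB N B w → (s = false → ¬ PNB N B w) →
      (s = true → ¬ PNF N F w) → ∃ t, altRun N F s w = some t := by
  intro w
  induction w with
  | nil => intro s _ _ _ _; exact ⟨s, rfl⟩
  | cons a w ih =>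
    intro s h1 h2 h3 h4
    by_cases haN : a ∈ N
    · rw [altRun_cons_N N F haN]
      apply ih s
      · rintro ⟨u, f, ns, f', v, hf, hns, hf', rfl⟩
        exact h1 ⟨a :: u, f, ns, f', v, hf, hns, hf', rfl⟩
      · rintro ⟨u, b, ns, b', v, hb, hns, hb', rfl⟩
        exact h2 ⟨a :: u, b, ns, b', v, hb, hns, hb', rfl⟩
      · rintro hs ⟨ns, b, v, hns, hb, rfl⟩
        exact h3 hs ⟨a :: ns, b, v, by simpa [haN] using hns, hb, rfl⟩
      · rintro hs ⟨ns, f, v, hns, hf, rfl⟩
        exact h4 hs ⟨a :: ns, f, v, by simpa [haN] using hns, hf, rfl⟩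
    · by_cases haF : a ∈ F
      · cases s with
        | true => exact absurd ⟨[], a, w, by simp, haF, rfl⟩ (h4 rfl)
        | false =>
          rw [altRun_cons_F N F haN haF]
          simp only [Bool.false_eq_true, if_false]
          apply ih true
          · rintro ⟨u, f, ns, f', v, hf, hns, hf', rfl⟩
            exact h1 ⟨a :: u, f, ns, f', v, hf, hns, hf', rfl⟩
          · rintro ⟨u, b, ns, b', v, hb, hns, hb', rfl⟩
            exact h2 ⟨a :: u, b, ns, b', v, hb, hns, hb', rfl⟩
          · intro hs; exact absurd hs (by simp)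
          · rintro - ⟨ns, f, v, hns, hf, rfl⟩
            exact h1 ⟨[], a, ns, f, v, haF, hns, hf, rfl⟩
      · have haB : a ∈ B := by
          rcases hcover a with h | h | h
          · exact absurd h haN
          · exact absurd h haF
          · exact h
        cases s with
        | false => exact absurd ⟨[], a, w, by simp, haB, rfl⟩ (h3 rfl)
        | true =>
          rw [altRun_cons_B N F haN haF]
          simp only [if_true]
          apply ih false
          · rintro ⟨u, f, ns, f', v, hf, hns, hf', rfl⟩
            exact h1 ⟨a :: u, f, ns, f', v, hf, hns, hf', rfl⟩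
          · rintro ⟨u, b, ns, b', v, hb, hns, hb', rfl⟩
            exact h2 ⟨a :: u, b, ns, b', v, hb, hns, hb', rfl⟩
          · rintro - ⟨ns, b, v, hns, hb, rfl⟩
            exact h2 ⟨[], a, ns, b, v, haB, hns, hb, rfl⟩
          · intro hs; exact absurd hs (by simp)

theorem altRun_true_final :
    ∀ (w : List α) (s : Bool), altRun N F s w = some true →
      PFN N F w ∨ (s = true ∧ ∀ x ∈ w, x ∈ N) := by
  intro w
  induction w with
  | nil =>
    intro s h
    right
    simp only [altRun, Option.some.injEq] at h
    exact ⟨h, by simp⟩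
  | cons a w ih =>
    intro s h
    by_cases haN : a ∈ N
    · rw [altRun_cons_N N F haN] at h
      rcases ih s h with ⟨u, f, ns, hf, hns, rfl⟩ | ⟨hs, hw⟩
      · exact Or.inl ⟨a :: u, f, ns, hf, hns, rfl⟩
      · exact Or.inr ⟨hs, by simpa [haN] using hw⟩
    · by_cases haF : a ∈ F
      · rw [altRun_cons_F N F haN haF] at h
        cases s with
        | true => simp at h
        | false =>
          simp only [Bool.false_eq_true, if_false] at h
          rcases ih true h with ⟨u, f, ns, hf, hns, rfl⟩ | ⟨-, hw⟩
          · exact Or.inl ⟨a :: u, f, ns, hf, hns, rfl⟩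
          · exact Or.inl ⟨[], a, w, haF, hw, rfl⟩
      · rw [altRun_cons_B N F haN haF] at h
        cases s with
        | false => simp at h
        | true =>
          simp only [if_true] at h
          rcases ih false h with ⟨u, f, ns, hf, hns, rfl⟩ | ⟨hs, -⟩
          · exact Or.inl ⟨a :: u, f, ns, hf, hns, rfl⟩
          · exact absurd hs (by simp)

/-- The run from the balanced state ends in the balanced state iff none of the four
forbidden patterns occurs. -/
theorem altRun_iff_patterns (hNF : ∀ a, a ∈ F → a ∉ N) (hNB : ∀ a, a ∈ B → a ∉ N)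
    (hFB : ∀ a, a ∈ B → a ∉ F) (hcover : ∀ a, a ∈ N ∨ a ∈ F ∨ a ∈ B) (w : List α) :
    altRun N F false w = some false ↔
      ¬ PFF N F w ∧ ¬ PBB N B w ∧ ¬ PNB N B w ∧ ¬ PFN N F w := by
  constructor
  · intro h
    refine ⟨?_, ?_, ?_, ?_⟩
    · rintro ⟨u, f, ns, f', v, hf, hns, hf', rfl⟩
      rw [altRun_append] at h
      cases hu : altRun N F false u with
      | none => simp [hu] at h
      | some t =>
        rw [hu] at h
        simp only [Option.bind_some] at h
        rw [altRun_cons_F N F (hNF f hf) hf] at h
        cases t with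
        | true => simp at h
        | false =>
          simp only [Bool.false_eq_true, if_false] at h
          rw [altRun_append, altRun_wordsOver N F hns] at h
          simp only [Option.bind_some] at h
          rw [altRun_cons_F N F (hNF f' hf') hf'] at h
          simp at h
    · rintro ⟨u, b, ns, b', v, hb, hns, hb', rfl⟩
      rw [altRun_append] at h
      cases hu : altRun N F false u with
      | none => simp [hu] at h
      | some t =>
        rw [hu] at h
        simp only [Option.bind_some] at h
        rw [altRun_cons_B N F (hNB b hb) (hFB b hb)] at h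
        cases t with
        | false => simp at h
        | true =>
          simp only [if_true] at h
          rw [altRun_append, altRun_wordsOver N F hns] at h
          simp only [Option.bind_some] at h
          rw [altRun_cons_B N F (hNB b' hb') (hFB b' hb')] at h
          simp at h
    · rintro ⟨ns, b, v, hns, hb, rfl⟩
      rw [altRun_append, altRun_wordsOver N F hns] at h
      simp only [Option.bind_some] at h
      rw [altRun_cons_B N F (hNB b hb) (hFB b hb)] at h
      simp at h
    · rintro ⟨u, f, ns, hf, hns, rfl⟩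
      rw [altRun_append] at h
      cases hu : altRun N F false u with
      | none => simp [hu] at h
      | some t =>
        rw [hu] at h
        simp only [Option.bind_some] at h
        rw [altRun_cons_F N F (hNF f hf) hf] at h
        cases t with
        | true => simp at h
        | false =>
          simp only [Bool.false_eq_true, if_false] at h
          rw [altRun_wordsOver N F hns] at h
          simp at h
  · rintro ⟨h1, h2, h3, h4⟩
    obtain ⟨t, ht⟩ := altRun_defined hcover w false h1 h2 (fun _ => h3) (fun hs => absurd hs (by simp))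
    cases t with
    | false => exact ht
    | true =>
      rcases altRun_true_final w false ht with h | ⟨hs, -⟩
      · exact absurd h h4
      · exact absurd hs (by simp)

/-! ### The block language -/

variable (N F B)

/-- The blocks: a single letter of `N`, or a letter of `F`, a word over `N`, a letter of `B`. -/
def altBlock : Language α := letters N + letters F * (wordsOver N * letters B)

/-- The alternation language the star of N + F N* B. -/
def altLang : Language α := (altBlock N F B)∗

variable {N F B}

omit [DecidableEq α] in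
theorem mem_altBlock (x : List α) :
    x ∈ altBlock N F B ↔ (∃ a ∈ N, x = [a]) ∨
      ∃ f ns b, f ∈ F ∧ (∀ y ∈ ns, y ∈ N) ∧ b ∈ B ∧ x = f :: (ns ++ [b]) := by
  simp only [altBlock, Language.mem_add, Language.mem_mul, mem_letters, mem_wordsOver]
  constructor
  · rintro (h | ⟨y, ⟨f, hf, rfl⟩, z, ⟨ns, hns, c, ⟨b, hb, rfl⟩, rfl⟩, rfl⟩)
    · exact Or.inl h
    · exact Or.inr ⟨f, ns, b, hf, hns, hb, rfl⟩
  · rintro (h | ⟨f, ns, b, hf, hns, hb, rfl⟩)
    · exact Or.inl h
    · exact Or.inr ⟨[f], ⟨f, hf, rfl⟩, ns ++ [b], ⟨ns, hns, [b], ⟨b, hb, rfl⟩, rfl⟩, rfl⟩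

theorem altRun_block (hNF : ∀ a, a ∈ F → a ∉ N) (hNB : ∀ a, a ∈ B → a ∉ N)
    (hFB : ∀ a, a ∈ B → a ∉ F) {x : List α} (hx : x ∈ altBlock N F B) :
    altRun N F false x = some false := by
  rcases (mem_altBlock x).mp hx with ⟨a, ha, rfl⟩ | ⟨f, ns, b, hf, hns, hb, rfl⟩
  · rw [altRun_cons_N N F ha]; rfl
  · rw [altRun_cons_F N F (hNF f hf) hf]
    simp only [Bool.false_eq_true, if_false]
    rw [altRun_append, altRun_wordsOver N F hns]
    simp only [Option.bind_some]
    rw [altRun_cons_B N F (hNB b hb) (hFB b hb)]
    rfl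

theorem altRun_true_split :
    ∀ w : List α, altRun N F true w = some false →
      ∃ ns b w', (∀ x ∈ ns, x ∈ N) ∧ b ∉ N ∧ b ∉ F ∧ w = ns ++ b :: w' ∧
        altRun N F false w' = some false := by
  intro w
  induction w with
  | nil => intro h; simp [altRun] at h
  | cons a w ih =>
    intro h
    by_cases haN : a ∈ N
    · rw [altRun_cons_N N F haN] at h
      obtain ⟨ns, b, w', hns, hbN, hbF, rfl, hw'⟩ := ih h
      exact ⟨a :: ns, b, w', by simpa [haN] using hns, hbN, hbF, rfl, hw'⟩
    · by_cases haF : a ∈ F
      · rw [altRun_cons_F N F haN haF] at h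
        simp at h
      · rw [altRun_cons_B N F haN haF] at h
        simp only [if_true] at h
        exact ⟨[], a, w, by simp, haN, haF, rfl, h⟩

theorem mem_altLang_of_run (hcover : ∀ a, a ∈ N ∨ a ∈ F ∨ a ∈ B) :
    ∀ (n : ℕ) (w : List α), w.length ≤ n → altRun N F false w = some false → w ∈ altLang N F B := by
  intro n
  induction n with
  | zero =>
    intro w hw _
    have : w = [] := List.eq_nil_of_length_eq_zero (by omega)
    subst this
    exact Language.nil_mem_kstar _
  | succ n ih =>
    intro w hw h
    cases w with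
    | nil => exact Language.nil_mem_kstar _
    | cons a w =>
      simp only [List.length_cons] at hw
      by_cases haN : a ∈ N
      · rw [altRun_cons_N N F haN] at h
        have hw' := ih w (by omega) h
        rw [altLang, Language.mem_kstar] at hw' ⊢
        obtain ⟨S, rfl, hS⟩ := hw'
        refine ⟨[a] :: S, by simp, ?_⟩
        intro y hy
        rcases List.mem_cons.mp hy with rfl | hy
        · exact (mem_altBlock _).mpr (Or.inl ⟨a, haN, rfl⟩)
        · exact hS y hy
      · by_cases haF : a ∈ F
        · rw [altRun_cons_F N F haN haF] at h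
          simp only [Bool.false_eq_true, if_false] at h
          obtain ⟨ns, b, w', hns, hbN, hbF, rfl, hw'⟩ := altRun_true_split w h
          have hbB : b ∈ B := by
            rcases hcover b with h | h | h
            · exact absurd h hbN
            · exact absurd h hbF
            · exact h
          have hlen : w'.length ≤ n := by
            simp only [List.length_append, List.length_cons] at hw
            omega
          have hw'' := ih w' hlen hw'
          rw [altLang, Language.mem_kstar] at hw'' ⊢
          obtain ⟨S, rfl, hS⟩ := hw''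
          refine ⟨(a :: (ns ++ [b])) :: S, by simp, ?_⟩
          intro y hy
          rcases List.mem_cons.mp hy with rfl | hy
          · exact (mem_altBlock _).mpr (Or.inr ⟨a, ns, b, haF, hns, hbB, rfl⟩)
          · exact hS y hy
        · rw [altRun_cons_B N F haN haF] at h
          simp at h

/-- Membership in the star of N + F N* B is acceptance by the two-state alternation automaton. -/
theorem mem_altLang_iff_run (hNF : ∀ a, a ∈ F → a ∉ N) (hNB : ∀ a, a ∈ B → a ∉ N)
    (hFB : ∀ a, a ∈ B → a ∉ F) (hcover : ∀ a, a ∈ N ∨ a ∈ F ∨ a ∈ B) (w : List α) :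
    w ∈ altLang N F B ↔ altRun N F false w = some false := by
  constructor
  · intro h
    rw [altLang, Language.mem_kstar] at h
    obtain ⟨S, rfl, hS⟩ := h
    induction S with
    | nil => rfl
    | cons x S ih =>
      rw [List.flatten_cons, altRun_append, altRun_block hNF hNB hFB (hS x (by simp))]
      simp only [Option.bind_some]
      exact ih (fun y hy => hS y (by simp [hy]))
  · exact mem_altLang_of_run hcover w.length w le_rfl

/-! ### Star-freeness -/

omit [DecidableEq α] in
theorem mem_pff_lang (w : List α) :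
    w ∈ (⊤ : Language α) * (letters F * (wordsOver N * (letters F * ⊤))) ↔ PFF N F w := by
  simp only [Language.mem_mul, mem_letters, mem_wordsOver, PFF]
  constructor
  · rintro ⟨u, -, x, ⟨y, ⟨f, hf, rfl⟩, z, ⟨ns, hns, t, ⟨c, ⟨f', hf', rfl⟩, v, -, rfl⟩, rfl⟩, rfl⟩, rfl⟩
    exact ⟨u, f, ns, f', v, hf, hns, hf', rfl⟩
  · rintro ⟨u, f, ns, f', v, hf, hns, hf', rfl⟩
    exact ⟨u, mem_top u, f :: (ns ++ f' :: v),
      ⟨[f], ⟨f, hf, rfl⟩, ns ++ f' :: v, ⟨ns, hns, f' :: v, ⟨[f'], ⟨f', hf', rfl⟩, v, mem_top v, rfl⟩, rfl⟩, rfl⟩, rfl⟩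

omit [DecidableEq α] in
theorem mem_pnb_lang (w : List α) :
    w ∈ wordsOver N * (letters B * (⊤ : Language α)) ↔ PNB N B w := by
  simp only [Language.mem_mul, mem_letters, mem_wordsOver, PNB]
  constructor
  · rintro ⟨ns, hns, x, ⟨y, ⟨b, hb, rfl⟩, v, -, rfl⟩, rfl⟩
    exact ⟨ns, b, v, hns, hb, rfl⟩
  · rintro ⟨ns, b, v, hns, hb, rfl⟩
    exact ⟨ns, hns, b :: v, ⟨[b], ⟨b, hb, rfl⟩, v, mem_top v, rfl⟩, rfl⟩

omit [DecidableEq α] in
theorem mem_pfn_lang (w : List α) :
    w ∈ (⊤ : Language α) * (letters F * wordsOver N) ↔ PFN N F w := by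
  simp only [Language.mem_mul, mem_letters, mem_wordsOver, PFN]
  constructor
  · rintro ⟨u, -, x, ⟨y, ⟨f, hf, rfl⟩, ns, hns, rfl⟩, rfl⟩
    exact ⟨u, f, ns, hf, hns, rfl⟩
  · rintro ⟨u, f, ns, hf, hns, rfl⟩
    exact ⟨u, mem_top u, f :: ns, ⟨[f], ⟨f, hf, rfl⟩, ns, hns, rfl⟩, rfl⟩

/-- **Alternation lemma.** If `N`, `F`, `B` are pairwise disjoint and cover the alphabet, then
the star of N + F N* B is the set of words avoiding four star-free patterns. -/
theorem altLang_eq (hNF : ∀ a, a ∈ F → a ∉ N) (hNB : ∀ a, a ∈ B → a ∉ N)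
    (hFB : ∀ a, a ∈ B → a ∉ F) (hcover : ∀ a, a ∈ N ∨ a ∈ F ∨ a ∈ B) :
    altLang N F B =
      ((⊤ : Language α) * (letters F * (wordsOver N * (letters F * ⊤))))ᶜ ⊓
      (((⊤ : Language α) * (letters B * (wordsOver N * (letters B * ⊤))))ᶜ ⊓
      ((wordsOver N * (letters B * (⊤ : Language α)))ᶜ ⊓
      ((⊤ : Language α) * (letters F * wordsOver N))ᶜ)) := by
  ext w
  rw [mem_altLang_iff_run hNF hNB hFB hcover, altRun_iff_patterns hNF hNB hFB hcover]
  simp only [Language.mem_inf, mem_compl_iff, mem_pff_lang, mem_pnb_lang, mem_pfn_lang]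
  rfl

/-- The alternation language the star of N + F N* B is star-free. -/
theorem sf_altLang [Fintype α] (hNF : ∀ a, a ∈ F → a ∉ N) (hNB : ∀ a, a ∈ B → a ∉ N)
    (hFB : ∀ a, a ∈ B → a ∉ F) (hcover : ∀ a, a ∈ N ∨ a ∈ F ∨ a ∈ B) :
    SF (altLang N F B) := by
  rw [altLang_eq hNF hNB hFB hcover]
  have hN := sf_wordsOver N
  have hF := sf_letters F
  have hB := sf_letters B
  have hT : SF (⊤ : Language α) := SF.top
  exact ((hT.mul (hF.mul (hN.mul (hF.mul hT)))).compl).inf
    (((hT.mul (hB.mul (hN.mul (hB.mul hT)))).compl).inf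
      (((hN.mul (hB.mul hT)).compl).inf ((hT.mul (hF.mul hN)).compl)))

end Vale.Agent.Helper4.P329
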