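import Vale.Agent.Helper10.Cnt
import Vale.Agent.Helper4.P329Radon
import Vale.Agent.Helper25.P329Elementary

/-!
# P329 assembly: from positional counts modulo a prime-valued degree to groups with an
abelian normal subgroup of elementary abelian quotient

`CountPrime` is the statement of the automata theorem (positional counts for a degree map into
`ZMod p`), `ProdEqOfCnt` the statement that positional counts determine the product.  Both are
taken as hypotheses here and instantiated by their owners.
-/

namespace Vale.Agent.Helper4.P329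

open Vale.Agent.Helper10 Finset

/-- Statement of the automata theorem: positional counts for a `ZMod p`-valued degree map,
restricted to letters of one degree, have star height at most one modulo every `e`. -/
def CountPrime : Prop :=
  ∀ (α : Type) [Finite α] (p : ℕ) [Fact p.Prime] (dg : α → ZMod p) (sp : α → Prop)
    [DecidablePred sp] (d : ZMod p), (∀ a, sp a → dg a = d) → ∀ (e : ℕ) [NeZero e] (x : ZMod p)
    (r : ZMod e), HasGSH 1 (fun w : List α => (cnt dg sp x 0 w : ZMod e) = r)

/-- Statement of task T1: the positional counts modulo the group order determine the product. -/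
def ProdEqOfCnt : Prop :=
  ∀ (G A α : Type) [Group G] [Finite G] [AddCommGroup A] [Finite A] [DecidableEq A]
    [DecidableEq α] [Finite α] (ψ : G →* Multiplicative A),
    (∀ a b : G, ψ a = 1 → ψ b = 1 → a * b = b * a) → ∀ (f : α → G) (w w' : List α),
    (∀ (a : α) (x : A), cnt (fun b => Multiplicative.toAdd (ψ (f b))) (fun b => b = a) x 0 w
        ≡ cnt (fun b => Multiplicative.toAdd (ψ (f b))) (fun b => b = a) x 0 w'
          [MOD Nat.card G]) →
    (w.map f).prod = (w'.map f).prod

/-- the additive functional `y ↦ v ⬝ᵥ y` -/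
def dotHom {n p : ℕ} (v : Fin n → ZMod p) : (Fin n → ZMod p) →+ ZMod p where
  toFun y := dotProduct v y
  map_zero' := dotProduct_zero v
  map_add' y z := dotProduct_add v y z

/-- (A1) positional counts of one letter for a degree map into `F_p^n` have star height at most
one modulo every `e`. -/
theorem count_elem (hcp : CountPrime) {α : Type} [Finite α] [DecidableEq α] {n p : ℕ}
    [Fact p.Prime] (dg : α → (Fin n → ZMod p)) (a : α) (e : ℕ) [NeZero e]
    (x : Fin n → ZMod p) (r : ZMod e) :
    HasGSH 1 (fun w : List α => (cnt dg (fun b => b = a) x 0 w : ZMod e) = r) := by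
  have hp : 2 ≤ p := (Fact.out : p.Prime).two_le
  have hM : p ^ n * (p - 1) * e ≠ 0 := by
    apply Nat.mul_ne_zero (Nat.mul_ne_zero (pow_ne_zero _ (by omega)) (by omega))
    exact NeZero.ne e
  have : NeZero (p ^ n * (p - 1) * e) := ⟨hM⟩
  -- the statistics
  let F : (Fin n → ZMod p) × ZMod p → List α → ZMod (p ^ n * (p - 1) * e) := fun i w =>
    (cnt (fun b => dotHom i.1 (dg b)) (fun b => b = a) i.2 0 w : ZMod (p ^ n * (p - 1) * e))
  have hF : ∀ i b, HasGSH 1 (fun w => F i w = b) := by
    intro i b
    exact hcp α p (fun b => dotHom i.1 (dg b)) (fun b => b = a) (dotHom i.1 (dg a))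
      (fun b hb => by rw [hb]) (p ^ n * (p - 1) * e) i.2 b
  refine HasGSH.of_fun (fun w => (fun i => F i w)) (fun T => HasGSH.pi F hF T) _ ?_
  intro w w' hww' hw
  have hrad : cnt dg (fun b => b = a) x 0 w ≡ cnt dg (fun b => b = a) x 0 w' [MOD e] := by
    refine radon (fun y => cnt dg (fun b => b = a) y 0 w) (fun y => cnt dg (fun b => b = a) y 0 w')
      (fun v c => ?_) x
    have h1 := congrFun hww' (v, c)
    simp only [F] at h1
    rw [ZMod.natCast_eq_natCast_iff] at h1
    have e1 := cnt_comp (dotHom v) dg (fun b => b = a) c 0 w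
    have e2 := cnt_comp (dotHom v) dg (fun b => b = a) c 0 w'
    rw [map_zero] at e1 e2
    rw [e1, e2] at h1
    exact h1
  rw [← hw]
  exact ((ZMod.natCast_eq_natCast_iff _ _ _).mpr hrad).symm

/-- (A2) every language recognised by a finite group admitting a homomorphism onto a subgroup
of `F_p^n` with commutative kernel has generalized star height at most one. -/
theorem main_of (hcp : CountPrime) (hT1 : ProdEqOfCnt) {G α : Type} [Group G] [Finite G]
    [Finite α] {n p : ℕ} [Fact p.Prime] (ψ : G →* Multiplicative (Fin n → ZMod p))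
    (hker : ∀ a b : G, ψ a = 1 → ψ b = 1 → a * b = b * a) (f : α → G) (T : Set G) :
    HasGSH 1 (fun w : List α => (w.map f).prod ∈ T) := by
  classical
  have hG : Nat.card G ≠ 0 := Nat.card_pos.ne'
  have : NeZero (Nat.card G) := ⟨hG⟩
  let dg : α → (Fin n → ZMod p) := fun b => Multiplicative.toAdd (ψ (f b))
  let F : α × (Fin n → ZMod p) → List α → ZMod (Nat.card G) := fun i w =>
    (cnt dg (fun b => b = i.1) i.2 0 w : ZMod (Nat.card G))
  have hF : ∀ i b, HasGSH 1 (fun w => F i w = b) := fun i b =>
    count_elem hcp dg i.1 (Nat.card G) i.2 b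
  refine HasGSH.of_fun (fun w => (fun i => F i w)) (fun S => HasGSH.pi F hF S) _ ?_
  intro w w' hww' hw
  have hprod : (w.map f).prod = (w'.map f).prod := by
    refine hT1 G (Fin n → ZMod p) α ψ hker f w w' (fun a x => ?_)
    have h1 := congrFun hww' (a, x)
    simp only [F] at h1
    exact (ZMod.natCast_eq_natCast_iff _ _ _).mp h1
  rw [← hprod]
  exact hw

/-- (A3) intrinsic form: a finite group `G` with an abelian normal subgroup `N` such that `G ⧸ N`
is an elementary abelian `p`-group (commutators and `p`-th powers lie in `N`). -/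
theorem main_intrinsic (hcp : CountPrime) (hT1 : ProdEqOfCnt) {G α : Type} [Group G] [Finite G]
    [Finite α] (p : ℕ) [Fact p.Prime] (N : Subgroup G) [N.Normal]
    (hab : ∀ a ∈ N, ∀ b ∈ N, a * b = b * a)
    (hcomm : ∀ g h : G, g * h * g⁻¹ * h⁻¹ ∈ N) (hexp : ∀ g : G, g ^ p ∈ N)
    (f : α → G) (T : Set G) :
    HasGSH 1 (fun w : List α => (w.map f).prod ∈ T) := by
  obtain ⟨n, ψ, hψ⟩ := Vale.Agent.Helper25.P329.exists_hom_of_elementary p N hcomm hexp
  exact main_of hcp hT1 ψ
    (fun a b ha hb => hab a ((hψ a).mp ha) b ((hψ b).mp hb)) f T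

end Vale.Agent.Helper4.P329
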