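import Vale.Agent.Helper4.P329Assembly
import Vale.Agent.Helper10.PCount
import Vale.Agent.Helper2.P329Prod

/-!
# P329: hypothesis-free forms of the assembly

Languages recognised by a finite group with an abelian normal subgroup whose quotient is an
elementary abelian `p`-group have generalized star height at most one.
-/

namespace Vale.Agent.Helper4.P329

open Vale.Agent.Helper10

theorem countPrime : CountPrime :=
  fun _ _ _ _ dg sp _ d hsp e _ x r => count_prime dg sp d hsp e x r

theorem prodEqOfCnt : ProdEqOfCnt :=
  fun _ _ _ _ _ _ _ _ _ _ ψ hker f w w' h =>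
    Vale.Agent.Helper2.P329.prod_eq_of_cnt ψ hker f w w' h

/-- (A1) positional counts of one letter for a degree map into `F_p^n` have star height at most
one modulo every `e`. -/
theorem count_elem' {α : Type} [Finite α] [DecidableEq α] {n p : ℕ}
    [Fact p.Prime] (dg : α → (Fin n → ZMod p)) (a : α) (e : ℕ) [NeZero e]
    (x : Fin n → ZMod p) (r : ZMod e) :
    HasGSH 1 (fun w : List α => (cnt dg (fun b => b = a) x 0 w : ZMod e) = r) :=
  count_elem countPrime dg a e x r

/-- (A2) every language recognised by a finite group admitting a homomorphism into `F_p^n`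
with commutative kernel has generalized star height at most one. -/
theorem gsh_of_hom {G α : Type} [Group G] [Finite G] [Finite α] {n p : ℕ} [Fact p.Prime]
    (ψ : G →* Multiplicative (Fin n → ZMod p))
    (hker : ∀ a b : G, ψ a = 1 → ψ b = 1 → a * b = b * a) (f : α → G) (T : Set G) :
    HasGSH 1 (fun w : List α => (w.map f).prod ∈ T) :=
  main_of countPrime prodEqOfCnt ψ hker f T

/-- (A3) intrinsic form: a finite group `G` with an abelian normal subgroup `N` such that `G ⧸ N`
is an elementary abelian `p`-group (commutators and `p`-th powers lie in `N`). -/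
theorem gsh_of_abelian_by_elementary {G α : Type} [Group G] [Finite G] [Finite α] (p : ℕ)
    [Fact p.Prime] (N : Subgroup G) [N.Normal]
    (hab : ∀ a ∈ N, ∀ b ∈ N, a * b = b * a)
    (hcomm : ∀ g h : G, g * h * g⁻¹ * h⁻¹ ∈ N) (hexp : ∀ g : G, g ^ p ∈ N)
    (f : α → G) (T : Set G) :
    HasGSH 1 (fun w : List α => (w.map f).prod ∈ T) :=
  main_intrinsic countPrime prodEqOfCnt p N hab hcomm hexp f T

end Vale.Agent.Helper4.P329
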