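import Mathlib
import Vale.Agent.Helper23.P329Core

/-
P329, block B4: generalized star height is preserved by preimages under maps that send
each letter to a letter or erase it (`List.filterMap f`).
-/

namespace Vale.Agent.Helper4.P329

open Vale.Agent.Helper23.P329

variable {α β : Type}

/-- The expression denoting all words. -/
def top : GRegex α := GRegex.neg GRegex.zero

theorem mem_lang_top (w : List α) : w ∈ (top : GRegex α).lang :=
  Language.notMem_zero w

theorem height_top : (top : GRegex α).height = 0 := rfl

/-- Sum of the letters of a list. -/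
def sumChars : List α → GRegex α
  | [] => GRegex.zero
  | a :: s => GRegex.plus (GRegex.char a) (sumChars s)

theorem height_sumChars (s : List α) : (sumChars s).height = 0 := by
  induction s with
  | nil => rfl
  | cons a s ih => simp [sumChars, GRegex.height, ih]

theorem mem_lang_sumChars (s : List α) (w : List α) :
    w ∈ (sumChars s).lang ↔ ∃ a ∈ s, w = [a] := by
  induction s with
  | nil =>
    simp only [sumChars, GRegex.lang, List.not_mem_nil, false_and, exists_false, iff_false]
    exact Language.notMem_zero w
  | cons a s ih =>
    simp only [sumChars, GRegex.lang, Language.mem_add, ih, List.mem_cons]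
    constructor
    · rintro (h | ⟨b, hb, rfl⟩)
      · exact ⟨a, Or.inl rfl, h⟩
      · exact ⟨b, Or.inr hb, rfl⟩
    · rintro ⟨b, rfl | hb, rfl⟩
      · exact Or.inl rfl
      · exact Or.inr ⟨b, hb, rfl⟩

section Pre

variable [Fintype α] [DecidableEq β] (f : α → Option β)

/-- The letters that are not erased by `f`. -/
noncomputable def keptLetters : List α :=
  (Finset.univ : Finset α).toList.filter (fun a => (f a).isSome)

/-- The letters sent to `b` by `f`. -/
noncomputable def lettersTo (b : β) : List α :=
  (Finset.univ : Finset α).toList.filter (fun a => f a = some b)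

omit [DecidableEq β] in
theorem mem_keptLetters (a : α) : a ∈ keptLetters f ↔ f a ≠ none := by
  simp [keptLetters, Option.isSome_iff_ne_none]

theorem mem_lettersTo (b : β) (a : α) : a ∈ lettersTo f b ↔ f a = some b := by
  simp [lettersTo]

/-- Star-free expression for the words all of whose letters are erased by `f`. -/
noncomputable def erasedStar : GRegex α :=
  GRegex.neg (GRegex.comp top (GRegex.comp (sumChars (keptLetters f)) top))

omit [DecidableEq β] in
theorem height_erasedStar : (erasedStar f).height = 0 := by
  simp [erasedStar, GRegex.height, height_sumChars, height_top]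

omit [DecidableEq β] in
theorem mem_lang_erasedStar (w : List α) :
    w ∈ (erasedStar f).lang ↔ w.filterMap f = [] := by
  rw [List.filterMap_eq_nil_iff]
  show w ∉ (GRegex.comp top (GRegex.comp (sumChars (keptLetters f)) top)).lang ↔ _
  simp only [GRegex.lang, Language.mem_mul, mem_lang_sumChars, mem_keptLetters]
  constructor
  · intro h a ha
    by_contra hne
    obtain ⟨s, t, rfl⟩ := List.append_of_mem ha
    exact h ⟨s, mem_lang_top s, a :: t, ⟨[a], ⟨a, hne, rfl⟩, t, mem_lang_top t, rfl⟩, rfl⟩
  · rintro h ⟨s, -, x, ⟨y, ⟨a, hne, rfl⟩, t, -, rfl⟩, rfl⟩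
    exact hne (h a (by simp))

/-- The preimage expression under the letter-to-letter-or-erased map `f`. -/
noncomputable def pre : GRegex β → GRegex α
  | GRegex.zero => GRegex.zero
  | GRegex.one => erasedStar f
  | GRegex.char b =>
    GRegex.comp (erasedStar f) (GRegex.comp (sumChars (lettersTo f b)) (erasedStar f))
  | GRegex.plus P Q => GRegex.plus (pre P) (pre Q)
  | GRegex.comp P Q => GRegex.comp (pre P) (pre Q)
  | GRegex.neg P => GRegex.neg (pre P)
  | GRegex.star P => GRegex.plus (GRegex.star (pre P)) (erasedStar f)

theorem height_pre (E : GRegex β) : (pre f E).height = E.height := by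
  induction E with
  | zero => rfl
  | one => exact height_erasedStar f
  | char b => simp [pre, GRegex.height, height_erasedStar, height_sumChars]
  | plus P Q ihP ihQ => simp [pre, GRegex.height, ihP, ihQ]
  | comp P Q ihP ihQ => simp [pre, GRegex.height, ihP, ihQ]
  | neg P ih => simp [pre, GRegex.height, ih]
  | star P ih => simp [pre, GRegex.height, ih, height_erasedStar]

omit [Fintype α] [DecidableEq β] in
theorem filterMap_flatten_aux (S : List (List α)) :
    (S.flatten).filterMap f = (S.map (List.filterMap f)).flatten := by
  induction S with
  | nil => rfl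
  | cons y S ih => simp [List.filterMap_append, ih]

theorem mem_lang_pre (E : GRegex β) : ∀ w : List α, w ∈ (pre f E).lang ↔ w.filterMap f ∈ E.lang := by
  induction E with
  | zero =>
    intro w
    simp only [pre, GRegex.lang]
    exact ⟨fun h => (Language.notMem_zero _ h).elim, fun h => (Language.notMem_zero _ h).elim⟩
  | one =>
    intro w
    simp only [pre, GRegex.lang, mem_lang_erasedStar, Language.mem_one]
  | char b =>
    intro w
    simp only [pre, GRegex.lang, Language.mem_mul, mem_lang_erasedStar, mem_lang_sumChars, mem_lettersTo]
    constructor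
    · rintro ⟨u, hu, x, ⟨y, ⟨a, ha, rfl⟩, v, hv, rfl⟩, rfl⟩
      show _ = [b]
      simp [List.filterMap_append, hu, hv, ha]
    · intro h
      have h' : w.filterMap f = [b] := h
      rw [List.filterMap_eq_cons_iff] at h'
      obtain ⟨l₁, a, l₂, rfl, h1, h2, h3⟩ := h'
      exact ⟨l₁, (List.filterMap_eq_nil_iff).mpr h1, a :: l₂, ⟨[a], ⟨a, h2, rfl⟩, l₂, h3, rfl⟩, rfl⟩
  | plus P Q ihP ihQ =>
    intro w
    simp only [pre, GRegex.lang, Language.mem_add, ihP, ihQ]
  | comp P Q ihP ihQ =>
    intro w
    simp only [pre, GRegex.lang, Language.mem_mul, ihP, ihQ]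
    constructor
    · rintro ⟨u, hu, v, hv, rfl⟩
      exact ⟨_, hu, _, hv, (List.filterMap_append).symm⟩
    · rintro ⟨x, hx, y, hy, hxy⟩
      obtain ⟨l₁, l₂, rfl, rfl, rfl⟩ := (List.filterMap_eq_append_iff).mp hxy.symm
      exact ⟨l₁, hx, l₂, hy, rfl⟩
  | neg P ih =>
    intro w
    show w ∉ (pre f P).lang ↔ w.filterMap f ∉ P.lang
    rw [ih]
  | star P ih =>
    intro w
    simp only [pre, GRegex.lang, Language.mem_add, mem_lang_erasedStar, Language.mem_kstar]
    constructor
    · rintro (⟨S, rfl, hS⟩ | h)
      · refine ⟨S.map (List.filterMap f), filterMap_flatten_aux f S, ?_⟩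
        intro y hy
        obtain ⟨z, hz, rfl⟩ := List.mem_map.mp hy
        exact (ih z).mp (hS z hz)
      · exact ⟨[], by simp [h], by simp⟩
    · rintro ⟨S, hw, hS⟩
      have key : ∀ (S : List (List β)), (∀ y ∈ S, y ∈ P.lang) → ∀ w : List α,
          w.filterMap f = S.flatten →
          (∃ T : List (List α), w = T.flatten ∧ ∀ y ∈ T, y ∈ (pre f P).lang) ∨ w.filterMap f = [] := by
        intro S
        induction S with
        | nil =>
          intro _ w hw
          right
          simpa using hw
        | cons y S ihS =>
          intro hS w hw
          rw [List.flatten_cons] at hw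
          obtain ⟨l₁, l₂, rfl, h1, h2⟩ := (List.filterMap_eq_append_iff).mp hw
          have hy : y ∈ P.lang := hS y (by simp)
          rcases ihS (fun z hz => hS z (by simp [hz])) l₂ h2 with ⟨T, rfl, hT⟩ | hnil
          · left
            refine ⟨l₁ :: T, by simp, ?_⟩
            intro z hz
            rcases List.mem_cons.mp hz with rfl | hz
            · exact (ih _).mpr (h1 ▸ hy)
            · exact hT z hz
          · left
            refine ⟨[l₁ ++ l₂], by simp, ?_⟩
            intro z hz
            rw [List.mem_singleton] at hz
            subst hz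
            apply (ih _).mpr
            rw [List.filterMap_append, hnil, List.append_nil, h1]
            exact hy
      exact key S hS w hw

/-- **Closure under preimages of letter-to-letter-or-erased maps**: for every expression `E`
over `β` there is an expression over `α` of the same star height denoting the set of words
whose image under `List.filterMap f` lies in the language of `E`. -/
theorem exists_pre (E : GRegex β) :
    ∃ E' : GRegex α, E'.height = E.height ∧ ∀ w : List α, w ∈ E'.lang ↔ w.filterMap f ∈ E.lang :=
  ⟨pre f E, height_pre f E, mem_lang_pre f E⟩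

end Pre

/-- Preimages of star-free languages under letter-to-letter-or-erased maps are star-free. -/
theorem sf_preimage [Fintype α] (f : α → Option β) {L : Language β} (hL : SF L) :
    SF ({w : List α | w.filterMap f ∈ L} : Language α) := by
  classical
  obtain ⟨E, hE, rfl⟩ := hL
  refine ⟨pre f E, by rw [height_pre, hE], ?_⟩
  ext w
  exact mem_lang_pre f E w

/-- Preimages of languages of generalized star height at most one under
letter-to-letter-or-erased maps have generalized star height at most one. -/
theorem h1_preimage [Fintype α] (f : α → Option β) {L : Language β} (hL : H1 L) :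
    H1 ({w : List α | w.filterMap f ∈ L} : Language α) := by
  classical
  obtain ⟨E, hE, rfl⟩ := hL
  refine ⟨pre f E, by rw [height_pre]; exact hE, ?_⟩
  ext w
  exact mem_lang_pre f E w

end Vale.Agent.Helper4.P329
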