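import Mathlib

/-!
# P335 helper: the abstract squaring lemma and the gap consequence

Everything is stated for a real vector space `V` with a symmetric positive
semidefinite bilinear form `ip` (hypotheses `hs`, `hp`), so that it applies
verbatim to functions on a finite set with the counting inner product.

* `sq_of_ge_on_range`   : from `A ≥ 1` on the range of `Q` and `A ∘ Q = A` to `A² ≥ A`.
* `squaring`            : the squaring lemma for a finite family of symmetric idempotents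
                          with a family of blocks `𝒯` (two members in a common block satisfy the
                          block inequality, two members in no common block commute).
* `ge_one_on_range`     : `A` symmetric, `A ≥ 0`, `A² ≥ A` give `A ≥ 1` on the range of `A`.
* `gap_of_sq`           : finite-dimensional consequence, `⟨f, A f⟩ ≥ ‖f - P f‖²` where `P` is
                          the symmetric idempotent onto the kernel of `A`.
* `dotForm`             : the counting inner product on functions `Ω → ℝ`.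
-/

namespace Vale.Agent.Helper4.P335

open Finset

variable {V : Type*} [AddCommGroup V] [Module ℝ V]

/-- Cauchy-Schwarz for a symmetric positive semidefinite form. -/
theorem ip_sq_le (ip : LinearMap.BilinForm ℝ V) (hs : ∀ f g, ip f g = ip g f)
    (hp : ∀ f, 0 ≤ ip f f) (f g : V) : ip f g ^ 2 ≤ ip f f * ip g g := by
  have h := LinearMap.BilinForm.apply_mul_apply_le_of_forall_zero_le ip hp f g
  rw [hs g f] at h
  nlinarith [h]

/-- If `A` is symmetric, `A ∘ Q = A`, and `⟨v, A v⟩ ≥ ⟨v, v⟩` for `v` in the range of `Q`,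
then `⟨A f, A f⟩ ≥ ⟨f, A f⟩` for all `f`. -/
theorem sq_of_ge_on_range (ip : LinearMap.BilinForm ℝ V) (hs : ∀ f g, ip f g = ip g f)
    (hp : ∀ f, 0 ≤ ip f f) (A Q : V →ₗ[ℝ] V)
    (hA : ∀ f g, ip (A f) g = ip f (A g))
    (hAQ : ∀ f, A (Q f) = A f)
    (hge : ∀ f, ip (Q f) (Q f) ≤ ip (Q f) (A (Q f))) (f : V) :
    ip f (A f) ≤ ip (A f) (A f) := by
  have h1 : ip f (A f) = ip (Q f) (A f) :=
    calc ip f (A f) = ip f (A (Q f)) := by rw [hAQ]
      _ = ip (A f) (Q f) := (hA f (Q f)).symm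
      _ = ip (Q f) (A f) := hs _ _
  have h2 := hge f
  have h3 := ip_sq_le ip hs hp (Q f) (A (Q f))
  rw [hAQ f] at h3 h2
  rw [h1]
  set a := ip (Q f) (A f) with ha
  set v := ip (Q f) (Q f) with hv
  set w := ip (A f) (A f) with hw
  have hv0 : 0 ≤ v := hp _
  have hw0 : 0 ≤ w := hp _
  -- a^2 ≤ v * w, v ≤ a  ⟹  a ≤ w
  by_contra hcon
  have hcon' : w < a := not_le.mp hcon
  have ha0 : 0 ≤ a := le_trans hv0 h2
  nlinarith [mul_le_mul_of_nonneg_right h2 hw0, mul_le_mul_of_nonneg_left hcon'.le ha0]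

/-- The cross term of two commuting symmetric idempotents is nonnegative. -/
theorem ip_comm_nonneg (ip : LinearMap.BilinForm ℝ V) (hs : ∀ f g, ip f g = ip g f)
    (hp : ∀ f, 0 ≤ ip f f) (Q Q' : V →ₗ[ℝ] V)
    (hQ : ∀ f g, ip (Q f) g = ip f (Q g))
    (hQ' : ∀ f g, ip (Q' f) g = ip f (Q' g))
    (hQQ : ∀ f, Q (Q f) = Q f) (hQ'Q' : ∀ f, Q' (Q' f) = Q' f)
    (hc : ∀ f, Q (Q' f) = Q' (Q f)) (f : V) :
    0 ≤ ip (Q f) (Q' f) := by
  have h : ip (Q (Q' f)) (Q (Q' f)) = ip (Q f) (Q' f) :=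
    calc ip (Q (Q' f)) (Q (Q' f)) = ip (Q' f) (Q (Q (Q' f))) := hQ _ _
      _ = ip (Q' f) (Q (Q' f)) := by rw [hQQ]
      _ = ip (Q' f) (Q' (Q f)) := by rw [hc]
      _ = ip (Q' (Q' f)) (Q f) := (hQ' _ _).symm
      _ = ip (Q' f) (Q f) := by rw [hQ'Q']
      _ = ip (Q f) (Q' f) := hs _ _
  rw [← h]; exact hp _

/-- **Squaring lemma.** `Q b` (`b ∈ s`) symmetric idempotents; `𝒯` a family of blocks (subsets
of `s`) such that two distinct members of `s` lie in at most one common block; members lying in no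
common block commute; every block sum `A_T = ∑ b ∈ T, Q b` satisfies `⟨f, A_T f⟩ ≤ ⟨A_T f, A_T f⟩`.
Then the full sum `A = ∑ b ∈ s, Q b` satisfies `⟨f, A f⟩ ≤ ⟨A f, A f⟩`. -/
theorem squaring {B : Type*} [DecidableEq B] (ip : LinearMap.BilinForm ℝ V)
    (hs : ∀ f g, ip f g = ip g f) (hp : ∀ f, 0 ≤ ip f f)
    (s : Finset B) (Q : B → V →ₗ[ℝ] V)
    (hQ : ∀ b ∈ s, ∀ f g, ip (Q b f) g = ip f (Q b g))
    (hQQ : ∀ b ∈ s, ∀ f, Q b (Q b f) = Q b f)
    (𝒯 : Finset (Finset B)) (hTs : ∀ T ∈ 𝒯, T ⊆ s)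
    (huniq : ∀ T ∈ 𝒯, ∀ T' ∈ 𝒯, ∀ b ∈ T, ∀ b' ∈ T, b ≠ b' → b ∈ T' → b' ∈ T' → T = T')
    (hcomm : ∀ b ∈ s, ∀ b' ∈ s, b ≠ b' → (∀ T ∈ 𝒯, ¬ (b ∈ T ∧ b' ∈ T)) →
      ∀ f, Q b (Q b' f) = Q b' (Q b f))
    (hblock : ∀ T ∈ 𝒯, ∀ f, ip f (∑ b ∈ T, Q b f) ≤ ip (∑ b ∈ T, Q b f) (∑ b ∈ T, Q b f))
    (f : V) :
    ip f (∑ b ∈ s, Q b f) ≤ ip (∑ b ∈ s, Q b f) (∑ b ∈ s, Q b f) := by
  classical
  -- the term function on ordered pairs
  set t : B × B → ℝ := fun p => ip (Q p.1 f) (Q p.2 f) with ht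
  -- expansion of a square over any subset of `s`
  have hexp : ∀ T : Finset B, T ⊆ s →
      ip (∑ b ∈ T, Q b f) (∑ b ∈ T, Q b f) = ip f (∑ b ∈ T, Q b f) + ∑ p ∈ T.offDiag, t p := by
    intro T hT
    have e1 : ip (∑ b ∈ T, Q b f) (∑ b ∈ T, Q b f) = ∑ p ∈ T ×ˢ T, t p := by
      rw [Finset.sum_product, Finset.sum_comm]
      simp only [map_sum, LinearMap.sum_apply, ht]
    have e2 : ∑ p ∈ T.diag, t p = ip f (∑ b ∈ T, Q b f) := by
      rw [Finset.sum_diag]
      simp only [map_sum, ht]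
      refine Finset.sum_congr rfl (fun b hb => ?_)
      rw [hQ b (hT hb), hQQ b (hT hb)]
    rw [e1, ← Finset.diag_union_offDiag, Finset.sum_union (Finset.disjoint_diag_offDiag _), e2]
  rw [hexp s (Finset.Subset.refl s)]
  -- split the off-diagonal pairs
  set cov : Finset (B × B) := s.offDiag.filter (fun p => ∃ T ∈ 𝒯, p.1 ∈ T ∧ p.2 ∈ T) with hcov
  have hsplit : ∑ p ∈ s.offDiag, t p
      = ∑ p ∈ cov, t p + ∑ p ∈ s.offDiag.filter (fun p => ¬ ∃ T ∈ 𝒯, p.1 ∈ T ∧ p.2 ∈ T), t p :=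
    (Finset.sum_filter_add_sum_filter_not _ _ _).symm
  -- the uncovered part is nonnegative
  have hunc : 0 ≤ ∑ p ∈ s.offDiag.filter (fun p => ¬ ∃ T ∈ 𝒯, p.1 ∈ T ∧ p.2 ∈ T), t p := by
    refine Finset.sum_nonneg (fun p hp' => ?_)
    rw [Finset.mem_filter, Finset.mem_offDiag] at hp'
    obtain ⟨⟨h1, h2, h3⟩, h4⟩ := hp'
    have h5 : ∀ T ∈ 𝒯, ¬ (p.1 ∈ T ∧ p.2 ∈ T) := fun T hT hh => h4 ⟨T, hT, hh⟩
    exact ip_comm_nonneg ip hs hp (Q p.1) (Q p.2) (hQ _ h1) (hQ _ h2) (hQQ _ h1) (hQQ _ h2)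
      (hcomm _ h1 _ h2 h3 h5) f
  -- the covered part is the sum over blocks
  have hcovU : cov = 𝒯.biUnion (fun T => T.offDiag) := by
    ext p
    simp only [hcov, Finset.mem_filter, Finset.mem_offDiag, Finset.mem_biUnion]
    constructor
    · rintro ⟨⟨h1, h2, h3⟩, T, hT, h4, h5⟩
      exact ⟨T, hT, h4, h5, h3⟩
    · rintro ⟨T, hT, h4, h5, h3⟩
      exact ⟨⟨hTs T hT h4, hTs T hT h5, h3⟩, T, hT, h4, h5⟩
  have hdisj : Set.PairwiseDisjoint (↑𝒯 : Set (Finset B)) (fun T => T.offDiag) := by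
    intro T hT T' hT' hne
    rw [Function.onFun, Finset.disjoint_left]
    intro p hpT hpT'
    rw [Finset.mem_offDiag] at hpT hpT'
    exact hne (huniq T hT T' hT' p.1 hpT.1 p.2 hpT.2.1 hpT.2.2 hpT'.1 hpT'.2.1)
  have hcovsum : ∑ p ∈ cov, t p = ∑ T ∈ 𝒯, ∑ p ∈ T.offDiag, t p := by
    rw [hcovU, Finset.sum_biUnion hdisj]
  have hcovnn : 0 ≤ ∑ p ∈ cov, t p := by
    rw [hcovsum]
    refine Finset.sum_nonneg (fun T hT => ?_)
    have h1 := hexp T (hTs T hT)
    have h2 := hblock T hT f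
    linarith
  rw [hsplit]
  linarith

/-- `A` symmetric, `A ≥ 0` and `A² ≥ A` give `A ≥ 1` on the range of `A`. -/
theorem ge_one_on_range (ip : LinearMap.BilinForm ℝ V) (hs : ∀ f g, ip f g = ip g f)
    (hp : ∀ f, 0 ≤ ip f f) (A : V →ₗ[ℝ] V)
    (hA : ∀ f g, ip (A f) g = ip f (A g))
    (hA0 : ∀ f, 0 ≤ ip f (A f))
    (hsq : ∀ f, ip f (A f) ≤ ip (A f) (A f)) (g : V) :
    ip (A g) (A g) ≤ ip (A g) (A (A g)) := by
  -- a1 = ⟨g, A g⟩, a2 = ⟨A g, A g⟩, a3 = ⟨A g, A A g⟩; a2 ^ 2 ≤ a1 * a3 and a1 ≤ a2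
  set a1 := ip g (A g) with ha1
  set a2 := ip (A g) (A g) with ha2
  set a3 := ip (A g) (A (A g)) with ha3
  have h12 : a1 ≤ a2 := hsq g
  have h1 : 0 ≤ a1 := hA0 g
  have h3 : 0 ≤ a3 := hA0 (A g)
  have h2 : 0 ≤ a2 := hp _
  -- Cauchy-Schwarz for the form (u, v) ↦ ⟨u, A v⟩
  have hcs : a2 ^ 2 ≤ a1 * a3 := by
    let ipA : LinearMap.BilinForm ℝ V := ip.compl₂ A
    have hsA : ∀ u v, ipA u v = ipA v u := by
      intro u v
      simp only [ipA, LinearMap.compl₂_apply]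
      rw [← hA, hs]
    have hpA : ∀ u, 0 ≤ ipA u u := by
      intro u
      simp only [ipA, LinearMap.compl₂_apply]
      exact hA0 u
    have h := ip_sq_le ipA hsA hpA g (A g)
    simp only [ipA, LinearMap.compl₂_apply] at h
    have e : ip g (A (A g)) = a2 := by rw [ha2, hA]
    rw [e] at h
    exact h
  by_contra hcon
  have hcon' : a3 < a2 := not_le.mp hcon
  nlinarith [mul_le_mul_of_nonneg_right h12 h3, mul_le_mul_of_nonneg_left hcon'.le h2]

/-- **Gap from squaring** (finite dimension). `A` symmetric, `A ≥ 0`, `A² ≥ A`; `P` a symmetric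
linear map with `A ∘ P = 0`, `P ∘ A = 0` and `P g = g` whenever `A g = 0` (so `P` is the
projection onto `ker A`). Then `⟨f - P f, f - P f⟩ ≤ ⟨f, A f⟩` for every `f`. -/
theorem gap_of_sq [FiniteDimensional ℝ V] (ip : LinearMap.BilinForm ℝ V)
    (hs : ∀ f g, ip f g = ip g f) (hp : ∀ f, 0 ≤ ip f f) (A P : V →ₗ[ℝ] V)
    (hA : ∀ f g, ip (A f) g = ip f (A g))
    (hA0 : ∀ f, 0 ≤ ip f (A f))
    (hsq : ∀ f, ip f (A f) ≤ ip (A f) (A f))
    (hP : ∀ f g, ip (P f) g = ip f (P g))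
    (hAP : ∀ f, A (P f) = 0) (hPA : ∀ f, P (A f) = 0)
    (hker : ∀ g, A g = 0 → P g = g) (f : V) :
    ip (f - P f) (f - P f) ≤ ip f (A f) := by
  have hPP : ∀ g, P (P g) = P g := fun g => hker (P g) (hAP g)
  set W : Submodule ℝ V := LinearMap.ker P with hW
  have hmaps : ∀ x ∈ W, A x ∈ W := fun x _ => by
    rw [hW, LinearMap.mem_ker]; exact hPA x
  set AW : W →ₗ[ℝ] W := A.restrict hmaps with hAW
  have hinj : Function.Injective AW := by
    rw [← LinearMap.ker_eq_bot, LinearMap.ker_eq_bot']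
    intro w hw
    have h1 : A (w : V) = 0 := by
      have := congrArg (fun z : W => (z : V)) hw
      simpa [hAW, LinearMap.restrict_apply] using this
    have h2 : P (w : V) = (w : V) := hker _ h1
    have h3 : P (w : V) = 0 := LinearMap.mem_ker.mp w.2
    exact Subtype.ext (by rw [← h2, h3]; rfl)
  have hsurj : Function.Surjective AW := LinearMap.injective_iff_surjective.mp hinj
  have hmem : f - P f ∈ W := by
    rw [hW, LinearMap.mem_ker, map_sub, hPP, sub_self]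
  obtain ⟨g, hg⟩ := hsurj ⟨f - P f, hmem⟩
  have hg' : A (g : V) = f - P f := by
    have := congrArg (fun z : W => (z : V)) hg
    simpa [hAW, LinearMap.restrict_apply] using this
  have key := ge_one_on_range ip hs hp A hA hA0 hsq (g : V)
  rw [hg'] at key
  have e1 : A (f - P f) = A f := by rw [map_sub, hAP, sub_zero]
  have e2 : ip (f - P f) (A f) = ip f (A f) := by
    rw [map_sub, LinearMap.sub_apply, hP, hPA, map_zero, sub_zero]
  rw [e1, e2] at key
  exact key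

/-- `A` symmetric, `A ≥ 0` and `A² ≥ c A` with `c > 0` give `A ≥ c` on the range of `A`. -/
theorem ge_c_on_range (ip : LinearMap.BilinForm ℝ V) (hs : ∀ f g, ip f g = ip g f)
    (hp : ∀ f, 0 ≤ ip f f) (A : V →ₗ[ℝ] V)
    (hA : ∀ f g, ip (A f) g = ip f (A g))
    (hA0 : ∀ f, 0 ≤ ip f (A f)) (c : ℝ) (hc : 0 < c)
    (hsq : ∀ f, c * ip f (A f) ≤ ip (A f) (A f)) (g : V) :
    c * ip (A g) (A g) ≤ ip (A g) (A (A g)) := by
  set a1 := ip g (A g) with ha1
  set a2 := ip (A g) (A g) with ha2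
  set a3 := ip (A g) (A (A g)) with ha3
  have h12 : c * a1 ≤ a2 := hsq g
  have h1 : 0 ≤ a1 := hA0 g
  have h3 : 0 ≤ a3 := hA0 (A g)
  have h2 : 0 ≤ a2 := hp _
  have hcs : a2 ^ 2 ≤ a1 * a3 := by
    let ipA : LinearMap.BilinForm ℝ V := ip.compl₂ A
    have hsA : ∀ u v, ipA u v = ipA v u := by
      intro u v
      simp only [ipA, LinearMap.compl₂_apply]
      rw [← hA, hs]
    have hpA : ∀ u, 0 ≤ ipA u u := by
      intro u
      simp only [ipA, LinearMap.compl₂_apply]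
      exact hA0 u
    have h := ip_sq_le ipA hsA hpA g (A g)
    simp only [ipA, LinearMap.compl₂_apply] at h
    have e : ip g (A (A g)) = a2 := by rw [ha2, hA]
    rw [e] at h
    exact h
  by_contra hcon
  have hcon' : a3 < c * a2 := not_le.mp hcon
  rcases h2.eq_or_lt with h0 | hpos
  · rw [← h0] at hcon'
    linarith
  · -- c * a2^2 ≤ c * a1 * a3 ≤ a2 * a3 < a2 * (c * a2)
    have e1 : c * a2 ^ 2 ≤ c * (a1 * a3) := mul_le_mul_of_nonneg_left hcs hc.le
    have e2 : c * a1 * a3 ≤ a2 * a3 := mul_le_mul_of_nonneg_right h12 h3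
    have e3 : a2 * a3 < a2 * (c * a2) := mul_lt_mul_of_pos_left hcon' hpos
    nlinarith

/-- In finite dimension, for a definite form and a symmetric `A`, every vector orthogonal to
the kernel of `A` lies in the range of `A`. -/
theorem mem_range_of_orth [FiniteDimensional ℝ V] (ip : LinearMap.BilinForm ℝ V)
    (hs : ∀ f g, ip f g = ip g f) (hdef : ∀ f, ip f f = 0 → f = 0) (A : V →ₗ[ℝ] V)
    (hA : ∀ f g, ip (A f) g = ip f (A g))
    (f : V) (hf : ∀ g, A g = 0 → ip f g = 0) : ∃ g, A g = f := by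
  set W : Submodule ℝ V := LinearMap.range A with hW
  have hmaps : ∀ x ∈ W, A x ∈ W := fun x _ => LinearMap.mem_range_self A x
  set AW : W →ₗ[ℝ] W := A.restrict hmaps with hAW
  have hinj : Function.Injective AW := by
    rw [← LinearMap.ker_eq_bot, LinearMap.ker_eq_bot']
    intro w hw
    have h1 : A (w : V) = 0 := by
      have := congrArg (fun z : W => (z : V)) hw
      simpa [hAW, LinearMap.restrict_apply] using this
    obtain ⟨g, hg⟩ := LinearMap.mem_range.mp w.2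
    have h2 : ip (w : V) (w : V) = 0 := by
      have h0 : ip (A g) (w : V) = 0 := by rw [hA, h1, map_zero]
      rwa [hg] at h0
    exact Subtype.ext (hdef _ h2)
  have hsurj : Function.Surjective AW := LinearMap.injective_iff_surjective.mp hinj
  obtain ⟨w, hw⟩ := hsurj ⟨A f, LinearMap.mem_range_self A f⟩
  have hw' : A (w : V) = A f := by
    have := congrArg (fun z : W => (z : V)) hw
    simpa [hAW, LinearMap.restrict_apply] using this
  obtain ⟨g, hg⟩ := LinearMap.mem_range.mp w.2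
  have hker : A (f - w) = 0 := by rw [map_sub, hw', sub_self]
  have e1 : ip f (f - w) = 0 := hf _ hker
  have e2 : ip (w : V) (f - w) = 0 := by
    have h0 : ip (A g) (f - w) = 0 := by rw [hA, hker, map_zero]
    rwa [hg] at h0
  have e3 : ip (f - w) (f - w) = 0 := by
    have : ip (f - w) (f - w) = ip f (f - w) - ip (w : V) (f - w) := by
      rw [hs f (f - w), hs (w : V) (f - w), ← map_sub]
    rw [this, e1, e2, sub_zero]
  have e4 : f - w = 0 := hdef _ e3
  exact ⟨g, by rw [hg]; exact (sub_eq_zero.mp e4).symm⟩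

/-- The counting inner product on real functions on a finite type. -/
noncomputable def dotForm (Ω : Type*) [Fintype Ω] : LinearMap.BilinForm ℝ (Ω → ℝ) :=
  LinearMap.mk₂ ℝ (fun f g => ∑ x, f x * g x)
    (fun f f' g => by simp [add_mul, Finset.sum_add_distrib])
    (fun c f g => by simp [Finset.mul_sum, mul_assoc])
    (fun f g g' => by simp [mul_add, Finset.sum_add_distrib])
    (fun c f g => by simp [Finset.mul_sum, mul_left_comm])

theorem dotForm_apply {Ω : Type*} [Fintype Ω] (f g : Ω → ℝ) :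
    dotForm Ω f g = ∑ x, f x * g x := rfl

theorem dotForm_symm {Ω : Type*} [Fintype Ω] (f g : Ω → ℝ) :
    dotForm Ω f g = dotForm Ω g f := by
  simp only [dotForm_apply, mul_comm]

theorem dotForm_nonneg {Ω : Type*} [Fintype Ω] (f : Ω → ℝ) : 0 ≤ dotForm Ω f f := by
  rw [dotForm_apply]; exact Finset.sum_nonneg (fun x _ => mul_self_nonneg _)

theorem dotForm_eq_zero {Ω : Type*} [Fintype Ω] (f : Ω → ℝ) (h : dotForm Ω f f = 0) : f = 0 := by
  rw [dotForm_apply] at h
  have h' := (Finset.sum_eq_zero_iff_of_nonneg (fun x _ => mul_self_nonneg (f x))).mp h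
  funext x
  exact mul_self_eq_zero.mp (h' x (Finset.mem_univ x))

end Vale.Agent.Helper4.P335
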